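import Mathlib

namespace Vale.Agent.Results.P024.FiniteLevel

universe u

open IntermediateField CategoryTheory

/-- `E` has no nontrivial abelian algebraic extension. -/
def SolvablyClosed (E : Type u) [Field E] : Prop :=
  ∀ L : IntermediateField E (AlgebraicClosure E),
    IsGalois E L → (∀ σ τ : L ≃ₐ[E] L, σ * τ = τ * σ) → L = ⊥

/-- the field embedding `j` induces the homomorphism `α` of Galois groups -/
def Induces {F₁ E₁ F₂ E₂ : Type u} [Field F₁] [Field E₁] [Field F₂] [Field E₂]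
    [Algebra F₁ E₁] [Algebra F₂ E₂]
    (j : E₂ →+* E₁) (α : (E₁ ≃ₐ[F₁] E₁) →* (E₂ ≃ₐ[F₂] E₂)) : Prop :=
  ∀ (g : E₁ ≃ₐ[F₁] E₁) (x : E₂), g (j x) = j (α g x)

/-- Uchida's conjecture (Q1). -/
def UchidaConjecture : Prop :=
  ∀ (F₁ E₁ F₂ E₂ : Type u) [Field F₁] [Field E₁] [Field F₂] [Field E₂]
    [NumberField F₁] [NumberField F₂] [Algebra F₁ E₁] [Algebra F₂ E₂]
    [IsGalois F₁ E₁] [IsGalois F₂ E₂],
    SolvablyClosed E₁ → SolvablyClosed E₂ →
    ∀ α : (E₁ ≃ₐ[F₁] E₁) →* (E₂ ≃ₐ[F₂] E₂), Continuous α → IsOpen (Set.range α) →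
      ∃ j : E₂ →+* E₁, Induces j α

/-- The special case: source an absolute Galois group, `α` surjective. -/
def UchidaAbsoluteSurjective : Prop :=
  ∀ (F₁ E₁ F₂ E₂ : Type u) [Field F₁] [Field E₁] [Field F₂] [Field E₂]
    [NumberField F₁] [NumberField F₂] [Algebra F₁ E₁] [Algebra F₂ E₂]
    [IsGalois F₁ E₁] [IsGalois F₂ E₂],
    IsAlgClosed E₁ → SolvablyClosed E₂ →
    ∀ α : (E₁ ≃ₐ[F₁] E₁) →* (E₂ ≃ₐ[F₂] E₂), Continuous α → Function.Surjective α →
      ∃ j : E₂ →+* E₁, Induces j α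

theorem solvablyClosed_of_isAlgClosed (E : Type u) [Field E] (h : IsAlgClosed E) :
    SolvablyClosed E := by
  intro L _ _
  exact IntermediateField.eq_bot_of_isAlgClosed_of_isAlgebraic L

section
variable {F E Ω : Type u} [Field F] [Field E] [Field Ω] [Algebra F E] [Algebra F Ω] [Algebra E Ω]
  [IsScalarTower F E Ω]

theorem continuous_restrictNormalHom [Normal F E] :
    Continuous (AlgEquiv.restrictNormalHom E : (Ω ≃ₐ[F] Ω) →* (E ≃ₐ[F] E)) := by
  apply continuous_of_continuousAt_one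
  intro s hs
  rw [map_one, krullTopology_mem_nhds_one_iff] at hs
  obtain ⟨N, hN, hNs⟩ := hs
  rw [Filter.mem_map, krullTopology_mem_nhds_one_iff]
  refine ⟨N.map (IsScalarTower.toAlgHom F E Ω), ?_, ?_⟩
  · exact (N.equivMap (IsScalarTower.toAlgHom F E Ω)).toLinearEquiv.finiteDimensional
  · intro g hg
    apply hNs
    intro x
    have := hg ⟨algebraMap E Ω x, ⟨x, x.2, rfl⟩⟩
    apply (algebraMap E Ω).injective
    simp only [AlgEquiv.smul_def] at this ⊢
    exact (AlgEquiv.restrictNormal_commutes g E x).trans this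
end

section
variable {F E : Type u} [Field F] [Field E] [Algebra F E]

/-- the map from a group into `Gal(E/K)` obtained from a map into `Gal(E/F)` with values in the
fixing subgroup of `K`. -/
noncomputable def liftToFixing {G : Type u} [Group G] (K : IntermediateField F E)
    (β : G →* (E ≃ₐ[F] E)) (h : ∀ g, β g ∈ K.fixingSubgroup) : G →* (E ≃ₐ[K] E) :=
  (fixingSubgroupEquiv K).toMonoidHom.comp (β.codRestrict K.fixingSubgroup h)

theorem liftToFixing_apply {G : Type u} [Group G] (K : IntermediateField F E)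
    (β : G →* (E ≃ₐ[F] E)) (h : ∀ g, β g ∈ K.fixingSubgroup) (g : G) (x : E) :
    liftToFixing K β h g x = β g x := rfl

theorem continuous_liftToFixing {G : Type u} [Group G] [TopologicalSpace G] [IsTopologicalGroup G]
    (K : IntermediateField F E) [FiniteDimensional F K]
    (β : G →* (E ≃ₐ[F] E)) (h : ∀ g, β g ∈ K.fixingSubgroup) (hβ : Continuous β) :
    Continuous (liftToFixing K β h) := by
  apply continuous_of_continuousAt_one
  intro s hs
  rw [map_one, krullTopology_mem_nhds_one_iff] at hs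
  obtain ⟨N, hN, hNs⟩ := hs
  rw [Filter.mem_map]
  have hfd : FiniteDimensional F (N.restrictScalars F) := by
    have : FiniteDimensional F N := FiniteDimensional.trans F K N
    exact this
  have hopen : IsOpen ((N.restrictScalars F).fixingSubgroup : Set (E ≃ₐ[F] E)) :=
    IntermediateField.fixingSubgroup_isOpen _
  have h1 : β ⁻¹' ((N.restrictScalars F).fixingSubgroup : Set (E ≃ₐ[F] E)) ∈ nhds (1 : G) := by
    apply (hopen.preimage hβ).mem_nhds
    simp
  refine Filter.mem_of_superset h1 ?_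
  intro g hg
  apply hNs
  intro x
  exact hg ⟨x.1, x.2⟩
end

theorem uchida_of_special (h : UchidaAbsoluteSurjective.{u}) : UchidaConjecture.{u} := by
  intro F₁ E₁ F₂ E₂ _ _ _ _ _ _ _ _ _ _ _hE₁ hE₂ α hα hopen
  -- the algebraic closure of `E₁`
  let Ω := AlgebraicClosure E₁
  have : Algebra.IsAlgebraic F₁ Ω := Algebra.IsAlgebraic.trans F₁ E₁ Ω
  have : IsAlgClosure F₁ Ω := ⟨inferInstance, inferInstance⟩
  have : IsGalois F₁ Ω := IsAlgClosure.isGalois F₁ Ω
  have : CharZero E₁ := charZero_of_injective_algebraMap (algebraMap F₁ E₁).injective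
  have : IsGalois E₁ Ω := IsAlgClosure.isGalois E₁ Ω
  let res : (Ω ≃ₐ[F₁] Ω) →* (E₁ ≃ₐ[F₁] E₁) := AlgEquiv.restrictNormalHom E₁
  have hres : Continuous res := continuous_restrictNormalHom
  have hres_surj : Function.Surjective res := AlgEquiv.restrictNormalHom_surjective Ω
  -- the image of `α`, an open hence closed subgroup
  let H : Subgroup (E₂ ≃ₐ[F₂] E₂) := α.range
  have hHopen : IsOpen (H : Set (E₂ ≃ₐ[F₂] E₂)) := by
    simpa [H, MonoidHom.coe_range] using hopen
  have hHclosed : IsClosed (H : Set (E₂ ≃ₐ[F₂] E₂)) := H.isClosed_of_isOpen hHopen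
  let K : IntermediateField F₂ E₂ := fixedField H
  have hfix : K.fixingSubgroup = H :=
    InfiniteGalois.fixingSubgroup_fixedField ⟨H, hHclosed⟩
  have : FiniteDimensional F₂ K := by
    rw [← InfiniteGalois.isOpen_iff_finite, hfix]
    exact hHopen
  have : NumberField K := NumberField.of_module_finite F₂ K
  have hmem : ∀ g, (α.comp res) g ∈ K.fixingSubgroup := by
    intro g
    rw [hfix]
    exact ⟨res g, rfl⟩
  let β : (Ω ≃ₐ[F₁] Ω) →* (E₂ ≃ₐ[K] E₂) := liftToFixing K (α.comp res) hmem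
  have hβ : Continuous β := continuous_liftToFixing K _ hmem (hα.comp hres)
  have hβ_surj : Function.Surjective β := by
    intro τ
    have hτ : (τ.restrictScalars F₂) ∈ H := by
      rw [← hfix]
      exact ((fixingSubgroupEquiv K).symm τ).2
    obtain ⟨g, hg⟩ := hτ
    obtain ⟨g', rfl⟩ := hres_surj g
    refine ⟨g', ?_⟩
    ext x
    rw [liftToFixing_apply]
    have := congrArg (fun f => f x) hg
    simpa using this
  obtain ⟨j, hj⟩ := h F₁ Ω K E₂ inferInstance hE₂ β hβ hβ_surj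
  -- `j` takes values in `E₁`
  have hrange : ∀ x, j x ∈ Set.range (algebraMap E₁ Ω) := by
    intro x
    rw [InfiniteGalois.mem_range_algebraMap_iff_fixed]
    intro f
    have h1 := hj (f.restrictScalars F₁) x
    have h2 : res (f.restrictScalars F₁) = 1 := by
      ext y
      apply (algebraMap E₁ Ω).injective
      have := AlgEquiv.restrictNormal_commutes (f.restrictScalars F₁) E₁ y
      rw [show res (f.restrictScalars F₁) y = (f.restrictScalars F₁).restrictNormal E₁ y from rfl,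
        this]
      simp
    have h3 : β (f.restrictScalars F₁) x = x := by
      rw [liftToFixing_apply]
      simp [h2]
    rw [h3] at h1
    exact h1
  choose j₀ hj₀ using hrange
  have hinj := (algebraMap E₁ Ω).injective
  let j' : E₂ →+* E₁ :=
    { toFun := j₀
      map_one' := hinj (by rw [hj₀]; simp)
      map_mul' := fun a b => hinj (by rw [hj₀, map_mul, map_mul, hj₀, hj₀])
      map_zero' := hinj (by rw [hj₀]; simp)
      map_add' := fun a b => hinj (by rw [hj₀, map_add, map_add, hj₀, hj₀]) }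
  refine ⟨j', ?_⟩
  intro g x
  obtain ⟨g', rfl⟩ := hres_surj g
  apply hinj
  have h1 := hj g' x
  rw [liftToFixing_apply] at h1
  have h2 := AlgEquiv.restrictNormal_commutes g' E₁ (j₀ x)
  rw [show res g' (j' x) = g'.restrictNormal E₁ (j₀ x) from rfl, h2, hj₀, h1]
  exact (hj₀ _).symm

theorem special_of_uchida (h : UchidaConjecture.{u}) : UchidaAbsoluteSurjective.{u} := by
  intro F₁ E₁ F₂ E₂ _ _ _ _ _ _ _ _ _ _ hE₁ hE₂ α hα hsurj
  refine h F₁ E₁ F₂ E₂ (solvablyClosed_of_isAlgClosed E₁ hE₁) hE₂ α hα ?_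
  rw [hsurj.range_eq]
  exact isOpen_univ

section finiteLevel
variable {F₁ E₁ F₂ E₂ : Type u} [Field F₁] [Field E₁] [Field F₂] [Field E₂]
  [Algebra F₁ E₁] [Algebra F₂ E₂]

/-- equivariant embeddings of a normal subextension `M` -/
def LevelEmb (α : (E₁ ≃ₐ[F₁] E₁) →* (E₂ ≃ₐ[F₂] E₂)) (M : IntermediateField F₂ E₂)
    [Normal F₂ M] : Type u :=
  {j : M →+* E₁ // ∀ (g : E₁ ≃ₐ[F₁] E₁) (x : M),
    g (j x) = j (AlgEquiv.restrictNormalHom M (α g) x)}

/-- restriction of equivariant embeddings -/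
def LevelEmb.restrict (α : (E₁ ≃ₐ[F₁] E₁) →* (E₂ ≃ₐ[F₂] E₂)) {M M' : IntermediateField F₂ E₂}
    [Normal F₂ M] [Normal F₂ M'] (h : M ≤ M') (j : LevelEmb α M') : LevelEmb α M :=
  ⟨j.1.comp (IntermediateField.inclusion h).toRingHom, by
    intro g x
    have := j.2 g (IntermediateField.inclusion h x)
    simp only [RingHom.comp_apply]
    refine this.trans ?_
    congr 1
    apply Subtype.ext
    rw [AlgEquiv.restrictNormalHom_apply]
    exact (AlgEquiv.restrictNormalHom_apply M (α g) x).symm⟩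

theorem LevelEmb.restrict_apply (α : (E₁ ≃ₐ[F₁] E₁) →* (E₂ ≃ₐ[F₂] E₂))
    {M M' : IntermediateField F₂ E₂}
    [Normal F₂ M] [Normal F₂ M'] (h : M ≤ M') (j : LevelEmb α M') (x : E₂) (hx : x ∈ M) :
    (LevelEmb.restrict α h j).1 ⟨x, hx⟩ = j.1 ⟨x, h hx⟩ := rfl

/-- the inverse system of equivariant embeddings of finite Galois subextensions -/
def levelFunctor (α : (E₁ ≃ₐ[F₁] E₁) →* (E₂ ≃ₐ[F₂] E₂)) :
    (FiniteGaloisIntermediateField F₂ E₂)ᵒᵖ ⥤ Type u where
  obj M := LevelEmb α M.unop.toIntermediateField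
  map {M M'} f := TypeCat.ofHom (LevelEmb.restrict α (leOfHom f.unop))

theorem exists_embedding_of_levels [NumberField F₂] [CharZero E₁] [IsGalois F₂ E₂]
    (α : (E₁ ≃ₐ[F₁] E₁) →* (E₂ ≃ₐ[F₂] E₂))
    (h : ∀ M : IntermediateField F₂ E₂, FiniteDimensional F₂ M → ∀ _ : IsGalois F₂ M,
      ∃ j : M →+* E₁, ∀ (g : E₁ ≃ₐ[F₁] E₁) (x : M),
        g (j x) = j (AlgEquiv.restrictNormalHom M (α g) x)) :
    ∃ j : E₂ →+* E₁, ∀ (g : E₁ ≃ₐ[F₁] E₁) (x : E₂), g (j x) = j (α g x) := by
  have hne : ∀ M : (FiniteGaloisIntermediateField F₂ E₂)ᵒᵖ, Nonempty ((levelFunctor α).obj M) := by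
    intro M
    obtain ⟨j, hj⟩ := h M.unop.toIntermediateField inferInstance inferInstance
    exact ⟨⟨j, hj⟩⟩
  have hfin : ∀ M : (FiniteGaloisIntermediateField F₂ E₂)ᵒᵖ, Finite ((levelFunctor α).obj M) := by
    intro M
    have : NumberField M.unop.toIntermediateField :=
      NumberField.of_module_finite F₂ M.unop.toIntermediateField
    have : Finite (M.unop.toIntermediateField →+* E₁) :=
      Finite.of_equiv _ (RingHom.equivRatAlgHom (R := M.unop.toIntermediateField) (S := E₁)).symm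
    exact Subtype.finite
  obtain ⟨u, hu⟩ := nonempty_sections_of_finite_inverse_system (levelFunctor α)
  -- compatibility
  have hcompat : ∀ (M M' : FiniteGaloisIntermediateField F₂ E₂) (hMM : M ≤ M') (x : E₂)
      (hx : x ∈ M.toIntermediateField),
      (u (Opposite.op M)).1 ⟨x, hx⟩ = (u (Opposite.op M')).1 ⟨x, hMM hx⟩ := by
    intro M M' hMM x hx
    rw [← hu (homOfLE hMM).op]
    rfl
  have hcompat' : ∀ (M M' : FiniteGaloisIntermediateField F₂ E₂) (x : E₂)
      (hx : x ∈ M.toIntermediateField) (hx' : x ∈ M'.toIntermediateField),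
      (u (Opposite.op M)).1 ⟨x, hx⟩ = (u (Opposite.op M')).1 ⟨x, hx'⟩ := by
    intro M M' x hx hx'
    rw [hcompat M (M ⊔ M') le_sup_left x hx, hcompat M' (M ⊔ M') le_sup_right x hx']
  let A : E₂ → FiniteGaloisIntermediateField F₂ E₂ :=
    fun x => FiniteGaloisIntermediateField.adjoin F₂ {x}
  have hA : ∀ x, x ∈ (A x).toIntermediateField := fun x =>
    FiniteGaloisIntermediateField.subset_adjoin F₂ {x} (Set.mem_singleton x)
  let j₀ : E₂ → E₁ := fun x => (u (Opposite.op (A x))).1 ⟨x, hA x⟩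
  have hj₀ : ∀ (M : FiniteGaloisIntermediateField F₂ E₂) (x : E₂)
      (hx : x ∈ M.toIntermediateField), j₀ x = (u (Opposite.op M)).1 ⟨x, hx⟩ :=
    fun M x hx => hcompat' _ _ x _ hx
  let j : E₂ →+* E₁ :=
    { toFun := j₀
      map_one' := by
        rw [hj₀ ⊥ 1 (one_mem _)]
        exact map_one (u (Opposite.op ⊥)).1
      map_zero' := by
        rw [hj₀ ⊥ 0 (zero_mem _)]
        exact map_zero (u (Opposite.op ⊥)).1
      map_mul' := by
        intro a b
        have ha : a ∈ (A a ⊔ A b).toIntermediateField :=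
          (le_sup_left : A a ≤ A a ⊔ A b) (hA a)
        have hb : b ∈ (A a ⊔ A b).toIntermediateField :=
          (le_sup_right : A b ≤ A a ⊔ A b) (hA b)
        rw [hj₀ (A a ⊔ A b) a ha, hj₀ (A a ⊔ A b) b hb, hj₀ (A a ⊔ A b) (a * b) (mul_mem ha hb)]
        exact map_mul (u (Opposite.op (A a ⊔ A b))).1 ⟨a, ha⟩ ⟨b, hb⟩
      map_add' := by
        intro a b
        have ha : a ∈ (A a ⊔ A b).toIntermediateField :=
          (le_sup_left : A a ≤ A a ⊔ A b) (hA a)
        have hb : b ∈ (A a ⊔ A b).toIntermediateField :=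
          (le_sup_right : A b ≤ A a ⊔ A b) (hA b)
        rw [hj₀ (A a ⊔ A b) a ha, hj₀ (A a ⊔ A b) b hb, hj₀ (A a ⊔ A b) (a + b) (add_mem ha hb)]
        exact map_add (u (Opposite.op (A a ⊔ A b))).1 ⟨a, ha⟩ ⟨b, hb⟩ }
  refine ⟨j, ?_⟩
  intro g x
  have h1 := (u (Opposite.op (A x))).2 g ⟨x, hA x⟩
  have h2 : ((AlgEquiv.restrictNormalHom (A x).toIntermediateField (α g) ⟨x, hA x⟩ :
      (A x).toIntermediateField) : E₂) = α g x :=
    AlgEquiv.restrictNormalHom_apply (A x).toIntermediateField (α g) ⟨x, hA x⟩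
  change g (j₀ x) = j₀ (α g x)
  rw [hj₀ (A x) (α g x) (h2 ▸ Subtype.mem _)]
  refine h1.trans ?_
  congr 1
  exact Subtype.ext h2

end finiteLevel


/-- The finite-level form: source an absolute Galois group, `α` surjective, and only an
equivariant embedding of each finite Galois subextension `M` of `E₂/F₂` is asked for. -/
def UchidaFiniteLevel : Prop :=
  ∀ (F₁ E₁ F₂ E₂ : Type u) [Field F₁] [Field E₁] [Field F₂] [Field E₂]
    [NumberField F₁] [NumberField F₂] [Algebra F₁ E₁] [Algebra F₂ E₂]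
    [IsGalois F₁ E₁] [IsGalois F₂ E₂],
    IsAlgClosed E₁ → SolvablyClosed E₂ →
    ∀ α : (E₁ ≃ₐ[F₁] E₁) →* (E₂ ≃ₐ[F₂] E₂), Continuous α → Function.Surjective α →
      ∀ M : IntermediateField F₂ E₂, FiniteDimensional F₂ M → ∀ _ : IsGalois F₂ M,
        ∃ j : M →+* E₁, ∀ (g : E₁ ≃ₐ[F₁] E₁) (x : M),
          g (j x) = j (AlgEquiv.restrictNormalHom M (α g) x)

theorem special_of_finiteLevel (h : UchidaFiniteLevel.{u}) : UchidaAbsoluteSurjective.{u} := by
  intro F₁ E₁ F₂ E₂ _ _ _ _ _ _ _ _ _ _ hE₁ hE₂ α hα hsurj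
  have : CharZero E₁ := charZero_of_injective_algebraMap (algebraMap F₁ E₁).injective
  exact exists_embedding_of_levels α (h F₁ E₁ F₂ E₂ hE₁ hE₂ α hα hsurj)

theorem finiteLevel_of_special (h : UchidaAbsoluteSurjective.{u}) : UchidaFiniteLevel.{u} := by
  intro F₁ E₁ F₂ E₂ _ _ _ _ _ _ _ _ _ _ hE₁ hE₂ α hα hsurj M _ _
  obtain ⟨j, hj⟩ := h F₁ E₁ F₂ E₂ hE₁ hE₂ α hα hsurj
  refine ⟨j.comp (algebraMap M E₂), ?_⟩
  intro g x
  have h1 := hj g (x : E₂)
  have h2 : ((AlgEquiv.restrictNormalHom M (α g) x : M) : E₂) = α g x :=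
    AlgEquiv.restrictNormalHom_apply M (α g) x
  simp only [RingHom.comp_apply]
  refine h1.trans ?_
  congr 1
  exact h2.symm

/-- Uchida's conjecture is equivalent to its finite-level form for surjective homomorphisms out of
absolute Galois groups. -/
theorem result : UchidaConjecture.{u} ↔ UchidaFiniteLevel.{u} :=
  ⟨fun h => finiteLevel_of_special (special_of_uchida h),
    fun h => uchida_of_special (special_of_finiteLevel h)⟩

end Vale.Agent.Results.P024.FiniteLevel
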